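import Vale.Agent.H12.PrimeSum

namespace Vale.Agent.H77.Lines

open Finset

variable {G : Type*} [AddCommGroup G] {ι : Type*}

/-- all sums `a + ∑ i ∈ s, φ i` with `a ∈ A`, `φ i ∈ F i` -/
def SumS (A : Set G) (F : ι → Set G) (s : Finset ι) : Set G :=
  {y | ∃ a ∈ A, ∃ φ : ι → G, (∀ i ∈ s, φ i ∈ F i) ∧ y = a + ∑ i ∈ s, φ i}

/-- uniqueness of the representation `a + ∑ i ∈ s, φ i` -/
def DirU (A : Set G) (F : ι → Set G) (s : Finset ι) : Prop :=
  ∀ a ∈ A, ∀ a' ∈ A, ∀ φ φ' : ι → G, (∀ i ∈ s, φ i ∈ F i) → (∀ i ∈ s, φ' i ∈ F i) →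
    a + ∑ i ∈ s, φ i = a' + ∑ i ∈ s, φ' i → a = a' ∧ ∀ i ∈ s, φ i = φ' i

/-- `A ⊕ (⊕_{i ∈ s} F i) = G` -/
def TS (A : Set G) (F : ι → Set G) (s : Finset ι) : Prop :=
  (∀ y, y ∈ SumS A F s) ∧ DirU A F s

/-- `B ⊕ S = G`, in the form: every `y` has a unique `f ∈ S` with `y - f ∈ B` -/
def C1 (B S : Set G) : Prop := ∀ y, ∃! f, f ∈ S ∧ y - f ∈ B

theorem sumS_congr {A : Set G} {F F' : ι → Set G} {s : Finset ι} (h : ∀ i ∈ s, F i = F' i) :
    SumS A F s = SumS A F' s := by
  ext y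
  constructor
  · rintro ⟨a, ha, φ, hφ, rfl⟩
    exact ⟨a, ha, φ, fun i hi => h i hi ▸ hφ i hi, rfl⟩
  · rintro ⟨a, ha, φ, hφ, rfl⟩
    exact ⟨a, ha, φ, fun i hi => (h i hi).symm ▸ hφ i hi, rfl⟩

theorem dirU_congr {A : Set G} {F F' : ι → Set G} {s : Finset ι} (h : ∀ i ∈ s, F i = F' i)
    (hd : DirU A F s) : DirU A F' s := by
  intro a ha a' ha' φ φ' hφ hφ' heq
  exact hd a ha a' ha' φ φ' (fun i hi => (h i hi).symm ▸ hφ i hi)
    (fun i hi => (h i hi).symm ▸ hφ' i hi) heq

theorem ts_congr {A : Set G} {F F' : ι → Set G} {s : Finset ι} (h : ∀ i ∈ s, F i = F' i)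
    (hT : TS A F s) : TS A F' s :=
  ⟨fun y => sumS_congr h ▸ hT.1 y, dirU_congr h hT.2⟩

theorem sumS_shift (A : Set G) (F : ι → Set G) (s : Finset ι) (c : G) :
    SumS ((· + c) '' A) F s = (· + c) '' SumS A F s := by
  ext y
  constructor
  · rintro ⟨_, ⟨a, ha, rfl⟩, φ, hφ, rfl⟩
    exact ⟨a + ∑ i ∈ s, φ i, ⟨a, ha, φ, hφ, rfl⟩, by
      show a + ∑ i ∈ s, φ i + c = a + c + ∑ i ∈ s, φ i
      abel⟩
  · rintro ⟨_, ⟨a, ha, φ, hφ, rfl⟩, rfl⟩
    exact ⟨a + c, ⟨a, ha, rfl⟩, φ, hφ, by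
      show a + ∑ i ∈ s, φ i + c = a + c + ∑ i ∈ s, φ i
      abel⟩

theorem dirU_shift {A : Set G} {F : ι → Set G} {s : Finset ι} (c : G) (hd : DirU A F s) :
    DirU ((· + c) '' A) F s := by
  rintro _ ⟨a, ha, rfl⟩ _ ⟨a', ha', rfl⟩ φ φ' hφ hφ' heq
  have h : a + ∑ i ∈ s, φ i = a' + ∑ i ∈ s, φ' i := by
    have e1 : a + c + ∑ i ∈ s, φ i = (a + ∑ i ∈ s, φ i) + c := by abel
    have e2 : a' + c + ∑ i ∈ s, φ' i = (a' + ∑ i ∈ s, φ' i) + c := by abel
    rw [e1, e2] at heq
    exact add_right_cancel heq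
  obtain ⟨h1, h2⟩ := hd a ha a' ha' φ φ' hφ hφ' h
  exact ⟨by rw [h1], h2⟩

theorem dirU_mono {A A' : Set G} {F : ι → Set G} {s : Finset ι} (h : A' ⊆ A) (hd : DirU A F s) :
    DirU A' F s :=
  fun a ha a' ha' φ φ' hφ hφ' heq => hd a (h ha) a' (h ha') φ φ' hφ hφ' heq

/-- splitting off one factor -/
theorem ts_insert_iff [DecidableEq ι] {A : Set G} {F : ι → Set G} {t : Finset ι} {i : ι}
    (hi : i ∉ t) : TS A F (insert i t) ↔ DirU A F t ∧ C1 (SumS A F t) (F i) := by
  have hne : ∀ j ∈ t, j ≠ i := fun j hj h => hi (h ▸ hj)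
  have hsum : ∀ (φ : ι → G) (f : G),
      ∑ j ∈ insert i t, Function.update φ i f j = f + ∑ j ∈ t, φ j := by
    intro φ f
    rw [Finset.sum_insert hi, Function.update_self]
    congr 1
    exact Finset.sum_congr rfl (fun j hj => Function.update_of_ne (hne j hj) _ _)
  have hmem : ∀ (φ : ι → G) (f : G), f ∈ F i → (∀ j ∈ t, φ j ∈ F j) →
      ∀ j ∈ insert i t, Function.update φ i f j ∈ F j := by
    intro φ f hf hφ j hj
    rcases Finset.mem_insert.mp hj with rfl | hj
    · rw [Function.update_self]; exact hf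
    · rw [Function.update_of_ne (hne j hj)]; exact hφ j hj
  constructor
  · rintro ⟨hex, hu⟩
    refine ⟨?_, ?_⟩
    · intro a ha a' ha' φ φ' hφ hφ' heq
      obtain ⟨a₀, -, ψ, hψ, -⟩ := hex 0
      have hf₀ : ψ i ∈ F i := hψ i (Finset.mem_insert_self i t)
      have h := hu a ha a' ha' (Function.update φ i (ψ i)) (Function.update φ' i (ψ i))
        (hmem φ _ hf₀ hφ) (hmem φ' _ hf₀ hφ') (by
          rw [hsum, hsum]
          have e1 : a + (ψ i + ∑ j ∈ t, φ j) = ψ i + (a + ∑ j ∈ t, φ j) := by abel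
          have e2 : a' + (ψ i + ∑ j ∈ t, φ' j) = ψ i + (a' + ∑ j ∈ t, φ' j) := by abel
          rw [e1, e2, heq])
      refine ⟨h.1, fun j hj => ?_⟩
      have h2 := h.2 j (Finset.mem_insert_of_mem hj)
      rwa [Function.update_of_ne (hne j hj), Function.update_of_ne (hne j hj)] at h2
    · intro y
      obtain ⟨a, ha, φ, hφ, rfl⟩ := hex y
      refine ⟨φ i, ⟨hφ i (Finset.mem_insert_self i t), a, ha, φ,
        fun j hj => hφ j (Finset.mem_insert_of_mem hj), by
          rw [Finset.sum_insert hi]; abel⟩, ?_⟩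
      rintro f' ⟨hf', a', ha', φ', hφ', h⟩
      have h2 := hu a ha a' ha' φ (Function.update φ' i f') hφ (hmem φ' f' hf' hφ') (by
        rw [hsum]
        have e : a + ∑ j ∈ insert i t, φ j = (a + ∑ j ∈ insert i t, φ j - f') + f' := by abel
        rw [e, h]; abel)
      have h3 := h2.2 i (Finset.mem_insert_self i t)
      rw [Function.update_self] at h3
      exact h3.symm
  · rintro ⟨hd, hc⟩
    refine ⟨?_, ?_⟩
    · intro y
      obtain ⟨f, ⟨hf, a, ha, φ, hφ, h⟩, -⟩ := hc y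
      refine ⟨a, ha, Function.update φ i f, hmem φ f hf hφ, ?_⟩
      rw [hsum]
      have e : y = (y - f) + f := by abel
      rw [e, h]; abel
    · intro a ha a' ha' φ φ' hφ hφ' heq
      rw [Finset.sum_insert hi, Finset.sum_insert hi] at heq
      have h1 : φ i ∈ F i ∧ (a + (φ i + ∑ j ∈ t, φ j)) - φ i ∈ SumS A F t :=
        ⟨hφ i (Finset.mem_insert_self i t), a, ha, φ,
          fun j hj => hφ j (Finset.mem_insert_of_mem hj), by abel⟩
      have h2 : φ' i ∈ F i ∧ (a + (φ i + ∑ j ∈ t, φ j)) - φ' i ∈ SumS A F t :=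
        ⟨hφ' i (Finset.mem_insert_self i t), a', ha', φ',
          fun j hj => hφ' j (Finset.mem_insert_of_mem hj), by rw [heq]; abel⟩
      have hii : φ i = φ' i := (hc _).unique h1 h2
      have heq' : a + ∑ j ∈ t, φ j = a' + ∑ j ∈ t, φ' j := by
        rw [hii] at heq
        have e1 : a + (φ' i + ∑ j ∈ t, φ j) = φ' i + (a + ∑ j ∈ t, φ j) := by abel
        have e2 : a' + (φ' i + ∑ j ∈ t, φ' j) = φ' i + (a' + ∑ j ∈ t, φ' j) := by abel
        rw [e1, e2] at heq
        exact add_left_cancel heq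
      obtain ⟨h3, h4⟩ := hd a ha a' ha' φ φ'
        (fun j hj => hφ j (Finset.mem_insert_of_mem hj))
        (fun j hj => hφ' j (Finset.mem_insert_of_mem hj)) heq'
      refine ⟨h3, fun j hj => ?_⟩
      rcases Finset.mem_insert.mp hj with rfl | hj
      · exact hii
      · exact h4 j hj

/-- replacing one factor -/
theorem ts_replace [DecidableEq ι] {A : Set G} {F : ι → Set G} {t : Finset ι} {i : ι}
    (hi : i ∉ t) (S' : Set G) (c : G) (hrepl : ∀ B : Set G, C1 B (F i) → C1 ((· + c) '' B) S')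
    (h : TS A F (insert i t)) :
    TS ((· + c) '' A) (Function.update F i S') (insert i t) := by
  have hne : ∀ j ∈ t, j ≠ i := fun j hj h => hi (h ▸ hj)
  have hagree : ∀ j ∈ t, F j = Function.update F i S' j := fun j hj =>
    (Function.update_of_ne (hne j hj) _ _).symm
  rw [ts_insert_iff hi] at h ⊢
  obtain ⟨hd, hc⟩ := h
  refine ⟨dirU_congr hagree (dirU_shift c hd), ?_⟩
  rw [Function.update_self, ← sumS_congr hagree, sumS_shift]
  exact hrepl _ hc

/-- replacing all factors, one at a time -/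
theorem ts_replace_all [DecidableEq ι] {A : Set G} (F F' : ι → Set G) (c : ι → G) (s : Finset ι)
    (hrepl : ∀ i ∈ s, ∀ B : Set G, C1 B (F i) → C1 ((· + c i) '' B) (F' i))
    (h : TS A F s) : TS ((· + ∑ i ∈ s, c i) '' A) F' s := by
  have key : ∀ u : Finset ι, u ⊆ s →
      TS ((· + ∑ i ∈ u, c i) '' A) (fun i => if i ∈ u then F' i else F i) s := by
    intro u
    induction u using Finset.induction_on with
    | empty =>
      intro _
      have e : ((· + ∑ i ∈ (∅ : Finset ι), c i) '' A) = A := by simp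
      rw [e]
      exact ts_congr (fun i _ => by simp) h
    | insert j u hj ih =>
      intro hsub
      have hjs : j ∈ s := hsub (Finset.mem_insert_self j u)
      have hu : u ⊆ s := fun x hx => hsub (Finset.mem_insert_of_mem hx)
      have h1 := ih hu
      rw [← Finset.insert_erase hjs] at h1
      have h2 := ts_replace (Finset.notMem_erase j s) (F' j) (c j) (by
        intro B hB
        have e : (if j ∈ u then F' j else F j) = F j := if_neg hj
        have hB' : C1 B (if j ∈ u then F' j else F j) := hB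
        rw [e] at hB'
        exact hrepl j hjs B hB') h1
      rw [Finset.insert_erase hjs] at h2
      have e1 : ((· + c j) '' ((· + ∑ i ∈ u, c i) '' A)) =
          ((· + ∑ i ∈ insert j u, c i) '' A) := by
        rw [Set.image_image, Finset.sum_insert hj]
        refine Set.image_congr' (fun a => ?_)
        abel
      have e2 : Function.update (fun i => if i ∈ u then F' i else F i) j (F' j) =
          (fun i => if i ∈ insert j u then F' i else F i) := by
        funext i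
        by_cases hij : i = j
        · subst hij; simp
        · simp [Finset.mem_insert, hij]
      rw [e1, e2] at h2
      exact h2
  exact ts_congr (fun i hi => by simp [hi]) (key s (Finset.Subset.refl s))

end Vale.Agent.H77.Lines
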