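import Vale.Agent.H77.Lines.Trans

namespace Vale.Agent.H77.Lines

open Finset
open Vale.Agent.H12.PrimeSum

variable {G : Type*} [AddCommGroup G] {ι : Type*}

theorem sum_update_insert [DecidableEq ι] {t : Finset ι} {i : ι} (hi : i ∉ t) (φ : ι → G)
    (f : G) : ∑ j ∈ insert i t, Function.update φ i f j = f + ∑ j ∈ t, φ j := by
  have hne : ∀ j ∈ t, j ≠ i := fun j hj h => hi (h ▸ hj)
  rw [Finset.sum_insert hi, Function.update_self]
  congr 1
  exact Finset.sum_congr rfl (fun j hj => Function.update_of_ne (hne j hj) _ _)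

omit [AddCommGroup G] in
theorem mem_update_insert [DecidableEq ι] {F : ι → Set G} {t : Finset ι} {i : ι} (hi : i ∉ t)
    (φ : ι → G) (f : G) (hf : f ∈ F i) (hφ : ∀ j ∈ t, φ j ∈ F j) :
    ∀ j ∈ insert i t, Function.update φ i f j ∈ F j := by
  have hne : ∀ j ∈ t, j ≠ i := fun j hj h => hi (h ▸ hj)
  intro j hj
  rcases Finset.mem_insert.mp hj with rfl | hj
  · rw [Function.update_self]; exact hf
  · rw [Function.update_of_ne (hne j hj)]; exact hφ j hj

/-- peeling one factor into the translation set -/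
theorem ts_peel [DecidableEq ι] {A : Set G} {F : ι → Set G} {t : Finset ι} {i : ι} (hi : i ∉ t)
    (h : TS A F (insert i t)) : TS {b | ∃ a ∈ A, ∃ f ∈ F i, b = a + f} F t := by
  obtain ⟨hex, hu⟩ := h
  refine ⟨?_, ?_⟩
  · intro y
    obtain ⟨a, ha, φ, hφ, rfl⟩ := hex y
    refine ⟨a + φ i, ⟨a, ha, φ i, hφ i (Finset.mem_insert_self i t), rfl⟩, φ,
      fun j hj => hφ j (Finset.mem_insert_of_mem hj), ?_⟩
    rw [Finset.sum_insert hi]; abel
  · rintro _ ⟨a, ha, f, hf, rfl⟩ _ ⟨a', ha', f', hf', rfl⟩ φ φ' hφ hφ' heq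
    have h := hu a ha a' ha' (Function.update φ i f) (Function.update φ' i f')
      (mem_update_insert hi φ f hf hφ) (mem_update_insert hi φ' f' hf' hφ') (by
        rw [sum_update_insert hi, sum_update_insert hi, ← add_assoc, ← add_assoc, heq])
    have hne : ∀ j ∈ t, j ≠ i := fun j hj h => hi (h ▸ hj)
    have hii := h.2 i (Finset.mem_insert_self i t)
    rw [Function.update_self, Function.update_self] at hii
    refine ⟨by rw [h.1, hii], fun j hj => ?_⟩
    have h2 := h.2 j (Finset.mem_insert_of_mem hj)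
    rwa [Function.update_of_ne (hne j hj), Function.update_of_ne (hne j hj)] at h2

/-- **Relation lemma.** In a tiling by arithmetic progressions of prime lengths, every nonzero
integer relation among the steps has a nonzero coefficient divisible by its prime. -/
theorem relation_lemma [DecidableEq ι] (htf : ∀ (n : ℤ) (w : G), n • w = 0 → n = 0 ∨ w = 0)
    {A : Set G} {g : ι → G} {p : ι → ℕ} {s : Finset ι} (hp : ∀ i ∈ s, (p i).Prime)
    (hg : ∀ i ∈ s, g i ≠ 0) (hT : TS A (fun i => AP (g i) (p i)) s) (κ : ι → ℤ)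
    (hrel : ∑ i ∈ s, κ i • g i = 0) (hκ : ∀ i ∈ s, κ i = 0 ∨ ¬ (p i : ℤ) ∣ κ i) :
    ∀ i ∈ s, κ i = 0 := by
  classical
  let t : ι → ℤ := fun i => if κ i = 0 then 1 else κ i
  have ht : ∀ i ∈ s, ¬ (p i : ℤ) ∣ t i := by
    intro i hi
    by_cases h0 : κ i = 0
    · have e : t i = 1 := if_pos h0
      rw [e]
      intro hd
      have h1 : (p i : ℤ) ∣ ((1 : ℕ) : ℤ) := by simpa using hd
      have h2 : p i ∣ 1 := Int.natCast_dvd_natCast.mp h1
      exact (hp i hi).one_lt.ne' (Nat.dvd_one.mp h2)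
    · have e : t i = κ i := if_neg h0
      rw [e]
      exact (hκ i hi).resolve_left h0
  have hT' := ts_replace_all (fun i => AP (g i) (p i)) (fun i => AP (t i • g i) (p i))
    (fun _ => (0 : G)) s (by
      intro i hi B hB
      have e : ((· + (0 : G)) '' B) = B := by simp
      rw [e]
      exact c1_ap_dil htf (hg i hi) (hp i hi) (ht i hi) hB) hT
  have e : ((· + ∑ _i ∈ s, (0 : G)) '' A) = A := by simp
  rw [e] at hT'
  obtain ⟨a, ha, -⟩ := hT'.1 0
  have h := hT'.2 a ha a ha (fun _ => 0) (fun i => if κ i = 0 then 0 else t i • g i)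
    (fun i hi => ⟨0, (hp i hi).pos, by simp⟩)
    (fun i hi => by
      by_cases h0 : κ i = 0
      · rw [if_pos h0]; exact ⟨0, (hp i hi).pos, by simp⟩
      · rw [if_neg h0]; exact ⟨1, (hp i hi).one_lt, by simp⟩)
    (by
      have e2 : ∑ i ∈ s, (if κ i = 0 then 0 else t i • g i) = ∑ i ∈ s, κ i • g i := by
        refine Finset.sum_congr rfl (fun i _ => ?_)
        by_cases h0 : κ i = 0
        · rw [if_pos h0, h0, zero_smul]
        · have e3 : t i = κ i := if_neg h0
          rw [if_neg h0, e3]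
      rw [e2, hrel]; simp)
  intro i hi
  by_contra h0
  have h1 := h.2 i hi
  have e3 : t i = κ i := if_neg h0
  rw [if_neg h0, e3] at h1
  rcases htf _ _ h1.symm with h2 | h2
  · exact h0 h2
  · exact hg i hi h2

/-- a combination avoiding all the primes (pure arithmetic) -/
theorem avoid [DecidableEq ι] (p : ι → ℕ) (s : Finset ι) (hp : ∀ i ∈ s, (p i).Prime)
    (hmult : ∀ q : ℕ, (s.filter (fun i => p i = q)).card ≤ q) (K : AddSubgroup (ι → ℤ))
    (h : ∀ i ∈ s, ∃ κ ∈ K, ¬ (p i : ℤ) ∣ κ i) : ∃ κ ∈ K, ∀ i ∈ s, ¬ (p i : ℤ) ∣ κ i := by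
  have key : ∀ u : Finset ι, u ⊆ s → ∃ κ ∈ K, ∀ i ∈ u, ¬ (p i : ℤ) ∣ κ i := by
    intro u
    induction u using Finset.induction_on with
    | empty => intro _; exact ⟨0, zero_mem K, fun i hi => absurd hi (Finset.notMem_empty i)⟩
    | insert i0 u hi0 ih =>
      intro hsub
      have hi0s : i0 ∈ s := hsub (Finset.mem_insert_self i0 u)
      have hus : u ⊆ s := fun j hj => hsub (Finset.mem_insert_of_mem hj)
      obtain ⟨x, hxK, hx⟩ := ih hus
      obtain ⟨y, hyK, hy⟩ := h i0 hi0s
      have hq : (p i0).Prime := hp i0 hi0s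
      have hqi : Prime ((p i0 : ℕ) : ℤ) := Nat.prime_iff_prime_int.mp hq
      have hpne : ∀ i ∈ s, p i ≠ p i0 → ¬ ((p i : ℕ) : ℤ) ∣ ((p i0 : ℕ) : ℤ) := by
        intro i hi hne hd
        exact hne ((Nat.prime_dvd_prime_iff_eq (hp i hi) hq).mp (Int.natCast_dvd_natCast.mp hd))
      set M : ℤ := ∏ i ∈ u.filter (fun i => p i ≠ p i0), ((p i : ℕ) : ℤ) with hM
      have hMq : ¬ ((p i0 : ℕ) : ℤ) ∣ M := by
        intro hd
        obtain ⟨i, hi, hdi⟩ := (Prime.dvd_finsetProd_iff hqi _).mp hd
        obtain ⟨hiu, hne⟩ := Finset.mem_filter.mp hi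
        exact hne ((Nat.prime_dvd_prime_iff_eq hq (hp i (hus hiu))).mp
          (Int.natCast_dvd_natCast.mp hdi)).symm
      have hMp : ∀ i ∈ u, p i ≠ p i0 → ((p i : ℕ) : ℤ) ∣ M := fun i hi hne =>
        Finset.dvd_prod_of_mem (fun i => ((p i : ℕ) : ℤ)) (Finset.mem_filter.mpr ⟨hi, hne⟩)
      -- indices in `insert i0 u` with a prime different from `p i0` lie in `u`
      have hmemu : ∀ i ∈ insert i0 u, i ≠ i0 → i ∈ u := fun i hi hne =>
        (Finset.mem_insert.mp hi).resolve_left hne
      by_cases hc : ∃ c : ℕ, c < p i0 ∧ ∀ i ∈ insert i0 u, p i = p i0 →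
          ¬ ((p i0 : ℕ) : ℤ) ∣ y i → ¬ ((p i0 : ℕ) : ℤ) ∣ x i + (c : ℤ) * M * y i
      · obtain ⟨c, -, hcW⟩ := hc
        refine ⟨x + ((c : ℤ) * M) • y, K.add_mem hxK (K.zsmul_mem hyK _), ?_⟩
        intro i hi
        have hz : (x + ((c : ℤ) * M) • y) i = x i + (c : ℤ) * M * y i := by
          simp [Pi.add_apply]
        rw [hz]
        by_cases hpi : p i = p i0
        · rw [hpi]
          by_cases hyi : ((p i0 : ℕ) : ℤ) ∣ y i
          · have hne : i ≠ i0 := fun e => hy (e ▸ hyi)
            have hxi := hx i (hmemu i hi hne)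
            rw [hpi] at hxi
            intro hd
            exact hxi ((dvd_add_left (Dvd.dvd.mul_left hyi _)).mp hd)
          · exact hcW i hi hpi hyi
        · have hne : i ≠ i0 := fun e => hpi (e ▸ rfl)
          have hiu := hmemu i hi hne
          intro hd
          have h1 : ((p i : ℕ) : ℤ) ∣ (c : ℤ) * M * y i :=
            Dvd.dvd.mul_right (Dvd.dvd.mul_left (hMp i hiu hpi) _) _
          exact hx i hiu ((dvd_add_left h1).mp hd)
      · push Not at hc
        -- every index with prime `p i0` has `y i` prime to `p i0`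
        have hall : ∀ i ∈ insert i0 u, p i = p i0 → ¬ ((p i0 : ℕ) : ℤ) ∣ y i := by
          have : Nonempty ι := ⟨i0⟩
          choose! f hf using hc
          set W := (insert i0 u).filter (fun i => p i = p i0 ∧ ¬ ((p i0 : ℕ) : ℤ) ∣ y i) with hW
          set U := (insert i0 u).filter (fun i => p i = p i0) with hU
          have hWU : W ⊆ U := by
            intro i hi
            obtain ⟨h1, h2, -⟩ := Finset.mem_filter.mp hi
            exact Finset.mem_filter.mpr ⟨h1, h2⟩
          have hfW : ∀ c ∈ Finset.range (p i0), f c ∈ W := by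
            intro c hcq
            obtain ⟨h1, h2, h3, -⟩ := hf c (Finset.mem_range.mp hcq)
            exact Finset.mem_filter.mpr ⟨h1, h2, h3⟩
          have hinj : Set.InjOn f (↑(Finset.range (p i0)) : Set ℕ) := by
            intro c hcq c' hcq' hcc
            have hcq1 : c < p i0 := Finset.mem_range.mp (Finset.mem_coe.mp hcq)
            have hcq2 : c' < p i0 := Finset.mem_range.mp (Finset.mem_coe.mp hcq')
            obtain ⟨-, -, h3, h4⟩ := hf c hcq1
            obtain ⟨-, -, -, h4'⟩ := hf c' hcq2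
            rw [← hcc] at h4'
            have hd : ((p i0 : ℕ) : ℤ) ∣ ((c : ℤ) - c') * (M * y (f c)) := by
              have e : ((c : ℤ) - c') * (M * y (f c)) =
                  (x (f c) + (c : ℤ) * M * y (f c)) - (x (f c) + (c' : ℤ) * M * y (f c)) := by
                ring
              rw [e]; exact dvd_sub h4 h4'
            have hd2 : ((p i0 : ℕ) : ℤ) ∣ (c : ℤ) - c' := by
              rcases hqi.dvd_or_dvd hd with h5 | h5
              · exact h5
              · rcases hqi.dvd_or_dvd h5 with h6 | h6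
                · exact absurd h6 hMq
                · exact absurd h6 h3
            have h0 : (c : ℤ) - c' = 0 := by
              apply Int.eq_zero_of_abs_lt_dvd hd2
              rw [abs_lt]; constructor <;> omega
            omega
          have hcard1 : p i0 ≤ W.card := by
            have := Finset.card_le_card_of_injOn f hfW hinj
            rwa [Finset.card_range] at this
          have hcard2 : U.card ≤ p i0 :=
            le_trans (Finset.card_le_card (Finset.filter_subset_filter _ hsub)) (hmult (p i0))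
          have hWeq : W = U :=
            Finset.eq_of_subset_of_card_le hWU (le_trans hcard2 hcard1)
          intro i hi hpi
          have hiU : i ∈ U := Finset.mem_filter.mpr ⟨hi, hpi⟩
          rw [← hWeq] at hiU
          exact (Finset.mem_filter.mp hiU).2.2
        refine ⟨((p i0 : ℕ) : ℤ) • x + M • y,
          K.add_mem (K.zsmul_mem hxK _) (K.zsmul_mem hyK _), ?_⟩
        intro i hi
        have hz : (((p i0 : ℕ) : ℤ) • x + M • y) i = ((p i0 : ℕ) : ℤ) * x i + M * y i := by
          simp [Pi.add_apply]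
        rw [hz]
        by_cases hpi : p i = p i0
        · rw [hpi]
          intro hd
          have h1 : ((p i0 : ℕ) : ℤ) ∣ M * y i := (dvd_add_right (dvd_mul_right _ _)).mp hd
          rcases hqi.dvd_or_dvd h1 with h2 | h2
          · exact hMq h2
          · exact hall i hi hpi h2
        · have hne : i ≠ i0 := fun e => hpi (e ▸ rfl)
          have hiu := hmemu i hi hne
          intro hd
          have h1 : ((p i : ℕ) : ℤ) ∣ ((p i0 : ℕ) : ℤ) * x i :=
            (dvd_add_left (Dvd.dvd.mul_right (hMp i hiu hpi) _)).mp hd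
          have hpi' : Prime ((p i : ℕ) : ℤ) := Nat.prime_iff_prime_int.mp (hp i (hus hiu))
          rcases hpi'.dvd_or_dvd h1 with h2 | h2
          · exact hpne i (hus hiu) hpi h2
          · exact hx i hiu h2
  exact key s (Finset.Subset.refl s)

/-- the relation map -/
def relHom (g : ι → G) (s : Finset ι) : (ι → ℤ) →+ G where
  toFun κ := ∑ j ∈ s, κ j • g j
  map_zero' := by simp
  map_add' κ κ' := by simp [add_smul, Finset.sum_add_distrib]

/-- existence of a good index -/
theorem good_index [DecidableEq ι] (htf : ∀ (n : ℤ) (w : G), n • w = 0 → n = 0 ∨ w = 0)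
    {A : Set G} {g : ι → G} {p : ι → ℕ} {s : Finset ι} (hs : s.Nonempty)
    (hp : ∀ i ∈ s, (p i).Prime) (hg : ∀ i ∈ s, g i ≠ 0)
    (hmult : ∀ q : ℕ, (s.filter (fun i => p i = q)).card ≤ q)
    (hT : TS A (fun i => AP (g i) (p i)) s) :
    ∃ i ∈ s, ∀ κ : ι → ℤ, ∑ j ∈ s, κ j • g j = 0 → (p i : ℤ) ∣ κ i := by
  by_contra hcon
  push Not at hcon
  obtain ⟨κ, hκK, hκ⟩ := avoid p s hp hmult (relHom g s).ker (fun i hi => by
    obtain ⟨κ, h1, h2⟩ := hcon i hi
    exact ⟨κ, (AddMonoidHom.mem_ker).mpr h1, h2⟩)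
  have hrel : ∑ j ∈ s, κ j • g j = 0 := (AddMonoidHom.mem_ker).mp hκK
  have h0 := relation_lemma htf hp hg hT κ hrel (fun i hi => Or.inr (hκ i hi))
  obtain ⟨i, hi⟩ := hs
  exact hκ i hi (by rw [h0 i hi]; exact dvd_zero _)

end Vale.Agent.H77.Lines
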