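import Vale.Agent.H77.Lines.Step

namespace Vale.Agent.H77.Lines

open Finset
open Vale.Agent.H12.PrimeSum

variable {G : Type*} [AddCommGroup G]

/-- a generator of the group of differences of a collinear set -/
theorem exists_gen (htf : ∀ (n : ℤ) (w : G), n • w = 0 → n = 0 ∨ w = 0) (F : Finset G)
    (hp : F.card.Prime) (hl : ∃ f₀ w : G, ∀ f ∈ F, ∃ c : ℤ, f = f₀ + c • w) :
    ∃ g c : G, g ≠ 0 ∧ c ∈ F ∧
      g ∈ AddSubgroup.closure {x : G | ∃ f ∈ F, ∃ f' ∈ F, x = f - f'} ∧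
      ∀ f ∈ F, ∃ m : ℤ, f = c + m • g := by
  obtain ⟨f₀, w, hw⟩ := hl
  obtain ⟨f₁, hf₁, f₂, hf₂, hne⟩ := Finset.one_lt_card.mp hp.one_lt
  set H := AddSubgroup.closure {x : G | ∃ f ∈ F, ∃ f' ∈ F, x = f - f'} with hH
  obtain ⟨D, hD⟩ := Int.subgroup_cyclic (H.comap (zmultiplesHom G w))
  have hmemH : ∀ n : ℤ, n • w ∈ H ↔ ∃ e : ℤ, e • D = n := by
    intro n
    have h1 : n ∈ H.comap (zmultiplesHom G w) ↔ n • w ∈ H := by
      rw [AddSubgroup.mem_comap, zmultiplesHom_apply]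
    rw [← h1, hD, AddSubgroup.mem_closure_singleton]
  have hdiff : ∀ f ∈ F, ∀ f' ∈ F, ∃ n : ℤ, f - f' = n • w ∧ n • w ∈ H := by
    intro f hf f' hf'
    obtain ⟨c, hc⟩ := hw f hf
    obtain ⟨c', hc'⟩ := hw f' hf'
    have e : f - f' = (c - c') • w := by rw [hc, hc', sub_smul]; abel
    refine ⟨c - c', e, ?_⟩
    rw [← e]; exact AddSubgroup.subset_closure ⟨f, hf, f', hf', rfl⟩
  obtain ⟨n₁₂, h12, h12H⟩ := hdiff f₁ hf₁ f₂ hf₂
  have hn12 : n₁₂ ≠ 0 := by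
    rintro rfl; rw [zero_smul, sub_eq_zero] at h12; exact hne h12
  have hw0 : w ≠ 0 := by
    rintro rfl; rw [smul_zero, sub_eq_zero] at h12; exact hne h12
  obtain ⟨e12, he12⟩ := (hmemH n₁₂).mp h12H
  have hD0 : D ≠ 0 := by
    rintro rfl; rw [smul_zero] at he12; exact hn12 he12.symm
  refine ⟨D • w, f₁, ?_, hf₁, ?_, ?_⟩
  · intro h
    rcases htf _ _ h with h | h
    · exact hD0 h
    · exact hw0 h
  · exact (hmemH D).mpr ⟨1, one_smul _ _⟩
  · intro f hf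
    obtain ⟨n, hn, hnH⟩ := hdiff f hf f₁ hf₁
    obtain ⟨e, he⟩ := (hmemH n).mp hnH
    refine ⟨e, ?_⟩
    have h2 : f = f₁ + (f - f₁) := by abel
    rw [h2, hn, ← he, smul_eq_mul, mul_smul]

/-- a collinear set of prime cardinality that has a complement is a complete residue system -/
theorem res_of_c1 {F : Finset G} (hp : F.card.Prime) {g c : G} (hcoord : ∀ f ∈ F, ∃ m : ℤ, f = c + m • g) {B : Set G}
    (hB : C1 B (↑F : Set G)) (hinv : ∀ b, b ∈ B ↔ b + F.card • g ∈ B) :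
    Res g F.card c (↑F : Set G) := by
  have hZ := inv_int hinv
  have hinj : ∀ x ∈ (↑F : Set G), ∀ x' ∈ (↑F : Set G), ∀ m m' : ℤ, x = c + m • g →
      x' = c + m' • g → (F.card : ℤ) ∣ m - m' → x = x' := by
    intro x hx x' hx' m m' hm hm' ⟨e, he⟩
    obtain ⟨f₀, ⟨-, hb₀⟩, -⟩ := hB 0
    refine (hB (0 - f₀ + x)).unique ⟨hx, ?_⟩ ⟨hx', ?_⟩
    · have e1 : 0 - f₀ + x - x = 0 - f₀ := by abel
      rw [e1]; exact hb₀
    · have e1 : 0 - f₀ + x - x' = (0 - f₀) + (e * (F.card : ℤ)) • g := by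
        have : m = m' + e * (F.card : ℤ) := by linarith
        rw [hm, hm', this, add_smul]; abel
      rw [e1]; exact (hZ e _).mp hb₀
  refine ⟨hcoord, ?_, hinj⟩
  intro r
  choose! m hm using hcoord
  have : NeZero F.card := ⟨hp.ne_zero⟩
  have hsurj := Finset.surj_on_of_inj_on_of_card_le (s := F)
    (t := (Finset.univ : Finset (ZMod F.card))) (fun a _ => ((m a : ℤ) : ZMod F.card))
    (fun a _ => Finset.mem_univ _)
    (fun a₁ a₂ ha₁ ha₂ h => by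
      have hd : (F.card : ℤ) ∣ m a₁ - m a₂ := by
        have := (ZMod.intCast_eq_intCast_iff_dvd_sub (m a₂) (m a₁) F.card).mp h.symm
        exact this
      exact hinj a₁ ha₁ a₂ ha₂ (m a₁) (m a₂) (hm a₁ ha₁) (hm a₂ ha₂) hd)
    (by rw [Finset.card_univ, ZMod.card])
  obtain ⟨a, ha, hra⟩ := hsurj (r : ZMod F.card) (Finset.mem_univ _)
  refine ⟨a, ha, m a, hm a ha, ?_⟩
  exact (ZMod.intCast_eq_intCast_iff_dvd_sub r (m a) F.card).mp hra

theorem ts_of_tiling {k : ℕ} {F : Fin k → Finset G} {A : Set G}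
    (hA : ∀ y, ∃! q : G × (Fin k → G), q.1 ∈ A ∧ (∀ i, q.2 i ∈ F i) ∧ q.1 + ∑ i, q.2 i = y) :
    TS A (fun i => (↑(F i) : Set G)) Finset.univ := by
  refine ⟨?_, ?_⟩
  · intro y
    obtain ⟨q, ⟨hq1, hq2, hq3⟩, -⟩ := hA y
    exact ⟨q.1, hq1, q.2, fun i _ => Finset.mem_coe.mpr (hq2 i), hq3.symm⟩
  · intro a ha a' ha' φ φ' hφ hφ' heq
    have h1 : ((a, φ) : G × (Fin k → G)).1 ∈ A ∧ (∀ i, ((a, φ) : G × (Fin k → G)).2 i ∈ F i) ∧
        ((a, φ) : G × (Fin k → G)).1 + ∑ i, ((a, φ) : G × (Fin k → G)).2 i = a + ∑ i, φ i :=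
      ⟨ha, fun i => Finset.mem_coe.mp (hφ i (Finset.mem_univ i)), rfl⟩
    have h2 : ((a', φ') : G × (Fin k → G)).1 ∈ A ∧
        (∀ i, ((a', φ') : G × (Fin k → G)).2 i ∈ F i) ∧
        ((a', φ') : G × (Fin k → G)).1 + ∑ i, ((a', φ') : G × (Fin k → G)).2 i =
          a + ∑ i, φ i :=
      ⟨ha', fun i => Finset.mem_coe.mp (hφ' i (Finset.mem_univ i)), heq.symm⟩
    have h3 := (hA _).unique h1 h2
    exact ⟨congrArg Prod.fst h3, fun i _ => congrFun (congrArg Prod.snd h3) i⟩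

theorem tiling_of_ts {k : ℕ} {F : Fin k → Finset G} {A : Set G}
    (h : TS A (fun i => (↑(F i) : Set G)) Finset.univ) :
    ∀ y, ∃! q : G × (Fin k → G), q.1 ∈ A ∧ (∀ i, q.2 i ∈ F i) ∧ q.1 + ∑ i, q.2 i = y := by
  intro y
  obtain ⟨a, ha, φ, hφ, rfl⟩ := h.1 y
  refine ⟨(a, φ), ⟨ha, fun i => Finset.mem_coe.mp (hφ i (Finset.mem_univ i)), rfl⟩, ?_⟩
  rintro ⟨a', φ'⟩ ⟨ha', hφ', heq⟩
  have h3 := h.2 a' ha' a ha φ' φ (fun i _ => Finset.mem_coe.mpr (hφ' i)) hφ heq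
  have h4 : φ' = φ := funext (fun i => h3.2 i (Finset.mem_univ i))
  rw [h3.1, h4]

/-- **Periodic tilings for direct sums of collinear sets of prime cardinality in arbitrary
directions**, no prime `q` being the cardinality of more than `q` of the summands. -/
theorem lines_periodic [IsNoetherian ℤ G]
    (htf : ∀ (n : ℤ) (w : G), n • w = 0 → n = 0 ∨ w = 0) {k : ℕ} (F : Fin k → Finset G)
    (hp : ∀ i, (F i).card.Prime)
    (hl : ∀ i, ∃ f₀ w : G, ∀ f ∈ F i, ∃ c : ℤ, f = f₀ + c • w)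
    (hmult : ∀ q : ℕ, (Finset.univ.filter (fun i => (F i).card = q)).card ≤ q)
    (A : Set G)
    (hA : ∀ y, ∃! q : G × (Fin k → G), q.1 ∈ A ∧ (∀ i, q.2 i ∈ F i) ∧ q.1 + ∑ i, q.2 i = y) :
    ∃ (A' : Set G) (N : ℕ), 0 < N ∧
      (∀ y, ∃! q : G × (Fin k → G), q.1 ∈ A' ∧ (∀ i, q.2 i ∈ F i) ∧ q.1 + ∑ i, q.2 i = y) ∧
      ∀ a ∈ A', ∀ v : G, a + N • v ∈ A' := by
  classical
  have hgen := fun i => exists_gen htf (F i) (hp i) (hl i)
  choose g c hg hc hgcl hcoord using hgen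
  have hTS := ts_of_tiling hA
  have hRes : ∀ i, Res (g i) (F i).card (c i) (↑(F i) : Set G) := by
    intro i
    have h1 := hTS
    rw [← Finset.insert_erase (Finset.mem_univ i), ts_insert_iff (Finset.notMem_erase i _)] at h1
    exact res_of_c1 (hp i) (hcoord i) h1.2 (inv_of_closure (F i) (hp i) h1.2 (hgcl i))
  have hTS1 := ts_replace_all (fun i => (↑(F i) : Set G)) (fun i => AP (g i) (F i).card) c
    Finset.univ (by
      intro i _ B hB
      have h := c1_trans htf (hg i) (hRes i) (res_ap htf (hg i) (hp i).pos)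
        (inv_of_closure (F i) (hp i) hB (hgcl i)) hB
      rwa [sub_zero] at h) hTS
  obtain ⟨A₁, N, hN, hT₁, hper⟩ := ap_family_periodic htf g (fun i => (F i).card) Finset.univ
    (fun i _ => hp i) (fun i _ => hg i) hmult _ hTS1
  have hTS2 := ts_replace_all (fun i => AP (g i) (F i).card) (fun i => (↑(F i) : Set G))
    (fun i => -c i) Finset.univ (by
      intro i _ B hB
      have h := c1_trans htf (hg i) (res_ap htf (hg i) (hp i).pos) (hRes i)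
        (ap_inv htf (hg i) (hp i) hB) hB
      rwa [zero_sub] at h) hT₁
  refine ⟨_, N, hN, tiling_of_ts hTS2, ?_⟩
  rintro _ ⟨a, ha, rfl⟩ v
  refine ⟨a + N • v, hper a ha v, ?_⟩
  show a + N • v + ∑ i, -c i = a + ∑ i, -c i + N • v
  abel

end Vale.Agent.H77.Lines
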