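import Vale.Agent.H77.Lines.Core

namespace Vale.Agent.H77.Lines

open Finset
open Vale.Agent.H12.PrimeSum

variable {G : Type*} [AddCommGroup G] {ι : Type*}

/-- elements of the group generated by `g j`, `j ∈ t`, are integer combinations -/
theorem exists_comb_of_mem_closure [DecidableEq ι] (g : ι → G) (t : Finset ι) {x : G}
    (hx : x ∈ AddSubgroup.closure (g '' (↑t : Set ι))) :
    ∃ κ : ι → ℤ, x = ∑ j ∈ t, κ j • g j := by
  induction hx using AddSubgroup.closure_induction with
  | mem y hy =>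
    obtain ⟨j, hj, rfl⟩ := hy
    refine ⟨Pi.single j 1, ?_⟩
    rw [Finset.sum_eq_single j]
    · simp
    · intro b _ hb; simp [hb]
    · intro h; exact absurd (Finset.mem_coe.mp hj) h
  | zero => exact ⟨0, by simp⟩
  | add y z _ _ hy hz =>
    obtain ⟨κ, rfl⟩ := hy
    obtain ⟨κ', rfl⟩ := hz
    exact ⟨κ + κ', by simp [add_smul, Finset.sum_add_distrib]⟩
  | neg y _ hy =>
    obtain ⟨κ, rfl⟩ := hy
    exact ⟨-κ, by simp [Finset.sum_neg_distrib]⟩

/-- For a good index `i` there is a periodic complement of the progression of `g i` that is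
invariant under the group generated by the other steps. -/
theorem exists_X [DecidableEq ι] [IsNoetherian ℤ G] {g : ι → G} {p : ι → ℕ} {t : Finset ι} {i : ι}
    (hi : i ∉ t) (hpi : (p i).Prime)
    (hgood : ∀ κ : ι → ℤ, ∑ j ∈ insert i t, κ j • g j = 0 → (p i : ℤ) ∣ κ i) :
    ∃ (X : Set G) (N : ℕ), 0 < N ∧ C1 X (AP (g i) (p i)) ∧
      (∀ x ∈ X, ∀ v : G, x + N • v ∈ X) ∧
      (∀ x ∈ X, ∀ γ ∈ AddSubgroup.closure (g '' (↑t : Set ι)), x + γ ∈ X) := by
  classical
  have hne : ∀ j ∈ t, j ≠ i := fun j hj h => hi (h ▸ hj)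
  set Γt : AddSubgroup G := AddSubgroup.closure (g '' (↑t : Set ι)) with hΓt
  set Γ : AddSubgroup G := AddSubgroup.closure (g '' (↑(insert i t) : Set ι)) with hΓ
  set Γ' : AddSubgroup G := Γt ⊔ AddSubgroup.zmultiples (p i • g i) with hΓ'
  have hle : Γt ≤ Γ := AddSubgroup.closure_mono (Set.image_mono (by
    intro j hj; exact Finset.mem_coe.mpr (Finset.mem_insert_of_mem (Finset.mem_coe.mp hj))))
  have hgi : g i ∈ Γ := AddSubgroup.subset_closure
    ⟨i, Finset.mem_coe.mpr (Finset.mem_insert_self i t), rfl⟩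
  have hle' : Γ' ≤ Γ := sup_le hle (by
    rw [AddSubgroup.zmultiples_le]; exact Γ.nsmul_mem hgi _)
  have hpgi : p i • g i ∈ Γ' :=
    (le_sup_right : AddSubgroup.zmultiples (p i • g i) ≤ Γ') (AddSubgroup.mem_zmultiples _)
  have hp0 : (0 : ℤ) < p i := by exact_mod_cast hpi.pos
  -- Claim A
  have hA0 : ∀ γ ∈ Γ, ∃ e : ℤ, γ - e • g i ∈ Γt := by
    intro γ hγ
    induction hγ using AddSubgroup.closure_induction with
    | mem y hy =>
      obtain ⟨j, hj, rfl⟩ := hy
      rcases Finset.mem_insert.mp (Finset.mem_coe.mp hj) with rfl | hjt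
      · exact ⟨1, by simp⟩
      · exact ⟨0, by
          simp only [zero_smul, sub_zero]
          exact AddSubgroup.subset_closure ⟨j, Finset.mem_coe.mpr hjt, rfl⟩⟩
    | zero => exact ⟨0, by simp⟩
    | add y z _ _ hy hz =>
      obtain ⟨e, he⟩ := hy
      obtain ⟨e', he'⟩ := hz
      refine ⟨e + e', ?_⟩
      have : y + z - (e + e') • g i = (y - e • g i) + (z - e' • g i) := by
        rw [add_smul]; abel
      rw [this]; exact add_mem he he'
    | neg y _ hy =>
      obtain ⟨e, he⟩ := hy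
      refine ⟨-e, ?_⟩
      have : -y - -e • g i = -(y - e • g i) := by rw [neg_smul]; abel
      rw [this]; exact neg_mem he
  have hA : ∀ γ ∈ Γ, ∃ l : ℕ, l < p i ∧ γ - l • g i ∈ Γ' := by
    intro γ hγ
    obtain ⟨e, he⟩ := hA0 γ hγ
    have h0 : 0 ≤ e % (p i : ℤ) := Int.emod_nonneg e (ne_of_gt hp0)
    have h1 : e % (p i : ℤ) < p i := Int.emod_lt_of_pos e hp0
    refine ⟨(e % (p i : ℤ)).toNat, by omega, ?_⟩
    have e1 : ((e % (p i : ℤ)).toNat : ℕ) • g i = (e % (p i : ℤ)) • g i := by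
      rw [← natCast_zsmul, Int.toNat_of_nonneg h0]
    have e2 : γ - (e % (p i : ℤ)) • g i = (γ - e • g i) + (e / (p i : ℤ)) • (p i • g i) := by
      have h3 : e = e % (p i : ℤ) + (e / (p i : ℤ)) * (p i : ℤ) := by
        have := Int.emod_add_mul_ediv e (p i); linarith
      have h4 : (e / (p i : ℤ)) • (p i • g i) = ((e / (p i : ℤ)) * (p i : ℤ)) • g i := by
        rw [mul_smul, natCast_zsmul]
      rw [h4]
      nth_rewrite 2 [h3]
      rw [add_smul]; abel
    rw [e1, e2]
    exact add_mem ((le_sup_left : Γt ≤ Γ') he) (Γ'.zsmul_mem hpgi _)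
  -- Claim B
  have hB : ∀ l l' : ℕ, l < p i → l' < p i → l • g i - l' • g i ∈ Γ' → l = l' := by
    intro l l' hl hl' hmem
    obtain ⟨x, hx, z, hz, hxz⟩ := AddSubgroup.mem_sup.mp hmem
    obtain ⟨e, rfl⟩ := AddSubgroup.mem_zmultiples_iff.mp hz
    obtain ⟨κ, rfl⟩ := exists_comb_of_mem_closure g t hx
    have hrel : ∑ j ∈ insert i t,
        (Function.update (fun j => -κ j) i ((l : ℤ) - l' - e * p i)) j • g j = 0 := by
      rw [Finset.sum_insert hi, Function.update_self]
      have e1 : ∑ j ∈ t, (Function.update (fun j => -κ j) i ((l : ℤ) - l' - e * p i)) j • g j =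
          -∑ j ∈ t, κ j • g j := by
        rw [← Finset.sum_neg_distrib]
        refine Finset.sum_congr rfl (fun j hj => ?_)
        rw [Function.update_of_ne (hne j hj), neg_smul]
      rw [e1, sub_smul, sub_smul, natCast_zsmul, natCast_zsmul, mul_smul, natCast_zsmul, ← hxz]
      abel
    have hd := hgood _ hrel
    rw [Function.update_self] at hd
    have hd2 : (p i : ℤ) ∣ (l : ℤ) - l' := by
      have : (l : ℤ) - l' = ((l : ℤ) - l' - e * p i) + e * p i := by ring
      rw [this]; exact dvd_add hd (dvd_mul_left _ _)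
    have : (l : ℤ) - l' = 0 := by
      apply Int.eq_zero_of_abs_lt_dvd hd2
      rw [abs_lt]; constructor <;> omega
    omega
  -- Claim C
  have hC : ∀ γ ∈ Γ, p i • γ ∈ Γ' := by
    intro γ hγ
    induction hγ using AddSubgroup.closure_induction with
    | mem y hy =>
      obtain ⟨j, hj, rfl⟩ := hy
      rcases Finset.mem_insert.mp (Finset.mem_coe.mp hj) with rfl | hjt
      · exact hpgi
      · exact (le_sup_left : Γt ≤ Γ') (Γt.nsmul_mem
          (AddSubgroup.subset_closure ⟨j, Finset.mem_coe.mpr hjt, rfl⟩) _)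
    | zero => rw [smul_zero]; exact zero_mem _
    | add y z _ _ hy hz => rw [smul_add]; exact add_mem hy hz
    | neg y _ hy => rw [smul_neg]; exact neg_mem hy
  -- the choice function
  let σ : G → G := fun x => (QuotientAddGroup.mk x : G ⧸ Γ).out
  have hσ1 : ∀ x, x - σ x ∈ Γ := by
    intro x
    have h : (QuotientAddGroup.mk (σ x) : G ⧸ Γ) = QuotientAddGroup.mk x := Quotient.out_eq _
    rw [QuotientAddGroup.eq] at h
    have e : x - σ x = -σ x + x := by abel
    rw [e]; exact h
  have hσ2 : ∀ x y, x - y ∈ Γ → σ x = σ y := by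
    intro x y hxy
    have h : (QuotientAddGroup.mk x : G ⧸ Γ) = QuotientAddGroup.mk y := by
      rw [QuotientAddGroup.eq]
      have e : -x + y = -(x - y) := by abel
      rw [e]; exact neg_mem hxy
    show (QuotientAddGroup.mk x : G ⧸ Γ).out = (QuotientAddGroup.mk y : G ⧸ Γ).out
    rw [h]
  let X₁ : Set G := {x | x - σ x ∈ Γ'}
  have hX₁ : C1 X₁ (AP (g i) (p i)) := by
    intro y
    obtain ⟨l, hl, hmem⟩ := hA (y - σ y) (hσ1 y)
    have hσl : ∀ l : ℕ, σ (y - l • g i) = σ y := fun l => hσ2 _ _ (by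
      have e : y - l • g i - y = -(l • g i) := by abel
      rw [e]; exact neg_mem (Γ.nsmul_mem hgi l))
    refine ⟨l • g i, ⟨⟨l, hl, rfl⟩, ?_⟩, ?_⟩
    · show y - l • g i - σ (y - l • g i) ∈ Γ'
      rw [hσl]
      have e : y - l • g i - σ y = y - σ y - l • g i := by abel
      rw [e]; exact hmem
    · rintro f ⟨⟨l', hl', rfl⟩, hf⟩
      have hf' : y - l' • g i - σ (y - l' • g i) ∈ Γ' := hf
      rw [hσl] at hf'
      have h3 : l • g i - l' • g i ∈ Γ' := by
        have e : l • g i - l' • g i = (y - l' • g i - σ y) - (y - σ y - l • g i) := by abel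
        rw [e]; exact sub_mem hf' hmem
      rw [hB l l' hl hl' h3]
  have hX₁inv : Inv Γ' X₁ := by
    intro k hk x hx
    show x + k - σ (x + k) ∈ Γ'
    have h1 : σ (x + k) = σ x := hσ2 _ _ (by
      have e : x + k - x = k := by abel
      rw [e]; exact hle' hk)
    rw [h1]
    have e : x + k - σ x = (x - σ x) + k := by abel
    rw [e]; exact add_mem hx hk
  obtain ⟨n, hn, hsat⟩ := exists_exponent Γ
  have hN : 0 < p i * n := Nat.mul_pos hpi.pos hn
  obtain ⟨X, hXc, hXinv⟩ := reglue Γ (mulSub (p i * n) ⊔ Γt) (c1_compl hX₁)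
    (by
      rintro f ⟨l, -, rfl⟩ f' ⟨l', -, rfl⟩
      exact sub_mem (Γ.nsmul_mem hgi l) (Γ.nsmul_mem hgi l'))
    (fun _ _ _ _ => trivial)
    (by
      intro k hk x hx
      obtain ⟨hkK, hkΓ⟩ := AddSubgroup.mem_inf.mp hk
      obtain ⟨u, hu, v, hv, rfl⟩ := AddSubgroup.mem_sup.mp hkK
      have huΓ : u ∈ Γ := by
        have e : u = (u + v) - v := by abel
        rw [e]; exact sub_mem hkΓ (hle hv)
      obtain ⟨l, hl, rfl⟩ := mulSub_inf_sat hsat hN hu (le_sat Γ huΓ)
      exact hX₁inv _ (add_mem (hC l hl) ((le_sup_left : Γt ≤ Γ') hv)) x hx)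
  refine ⟨X, p i * n, hN, c1_of_compl hXc, ?_, ?_⟩
  · intro x hx v
    exact hXinv _ ((le_sup_left : mulSub (p i * n) ≤ mulSub (p i * n) ⊔ Γt)
      (mem_mulSub.mpr ⟨v, rfl⟩)) x hx
  · intro x hx γ hγ
    exact hXinv _ ((le_sup_right : Γt ≤ mulSub (p i * n) ⊔ Γt) hγ) x hx

/-- **Core theorem**: a tile that is a direct sum of arithmetic progressions of prime lengths,
no prime `q` being the length of more than `q` of them, has a periodic tiling. -/
theorem ap_family_periodic [DecidableEq ι] [IsNoetherian ℤ G]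
    (htf : ∀ (n : ℤ) (w : G), n • w = 0 → n = 0 ∨ w = 0) (g : ι → G) (p : ι → ℕ)
    (s : Finset ι) :
    (∀ i ∈ s, (p i).Prime) → (∀ i ∈ s, g i ≠ 0) →
    (∀ q : ℕ, (s.filter (fun i => p i = q)).card ≤ q) →
    ∀ A : Set G, TS A (fun i => AP (g i) (p i)) s →
    ∃ (A' : Set G) (N : ℕ), 0 < N ∧ TS A' (fun i => AP (g i) (p i)) s ∧
      ∀ a ∈ A', ∀ v : G, a + N • v ∈ A' := by
  induction s using Finset.strongInduction with
  | H s ih =>
    intro hp hg hmult A hT
    by_cases hs : s.Nonempty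
    · obtain ⟨i, his, hgood⟩ := good_index htf hs hp hg hmult hT
      have hi : i ∉ s.erase i := Finset.notMem_erase i s
      have hins : insert i (s.erase i) = s := Finset.insert_erase his
      have hsub : s.erase i ⊆ s := Finset.erase_subset i s
      rw [← hins] at hT hgood
      obtain ⟨B', N₁, hN₁, hB', hper₁⟩ := ih (s.erase i) (Finset.erase_ssubset his)
        (fun j hj => hp j (hsub hj)) (fun j hj => hg j (hsub hj))
        (fun q => le_trans (Finset.card_le_card (Finset.filter_subset_filter _ hsub)) (hmult q))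
        _ (ts_peel hi hT)
      obtain ⟨X, N₂, hN₂, hX, hperX, hinvX⟩ := exists_X hi (hp i his) hgood
      have hsum : SumS (B' ∩ X) (fun i => AP (g i) (p i)) (s.erase i) = X := by
        ext x
        constructor
        · rintro ⟨a, ⟨-, haX⟩, φ, hφ, rfl⟩
          refine hinvX a haX _ (sum_mem (fun j hj => ?_))
          obtain ⟨l, -, hl⟩ := hφ j hj
          rw [hl]
          exact (AddSubgroup.closure (g '' (↑(s.erase i) : Set ι))).nsmul_mem
            (AddSubgroup.subset_closure ⟨j, Finset.mem_coe.mpr hj, rfl⟩) l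
        · intro hx
          obtain ⟨b, hb, φ, hφ, rfl⟩ := hB'.1 x
          refine ⟨b, ⟨hb, ?_⟩, φ, hφ, rfl⟩
          have hγ : -∑ j ∈ s.erase i, φ j ∈
              AddSubgroup.closure (g '' (↑(s.erase i) : Set ι)) := by
            refine neg_mem (sum_mem (fun j hj => ?_))
            obtain ⟨l, -, hl⟩ := hφ j hj
            rw [hl]
            exact (AddSubgroup.closure (g '' (↑(s.erase i) : Set ι))).nsmul_mem
              (AddSubgroup.subset_closure ⟨j, Finset.mem_coe.mpr hj, rfl⟩) l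
          have := hinvX _ hx _ hγ
          rwa [add_neg_cancel_right] at this
      refine ⟨B' ∩ X, N₁ * N₂, Nat.mul_pos hN₁ hN₂, ?_, ?_⟩
      · rw [← hins, ts_insert_iff hi]
        refine ⟨dirU_mono Set.inter_subset_left hB'.2, ?_⟩
        rw [hsum]; exact hX
      · rintro a ⟨haB, haX⟩ v
        refine ⟨?_, ?_⟩
        · rw [mul_smul]; exact hper₁ a haB _
        · rw [mul_comm, mul_smul]; exact hperX a haX _
    · rw [Finset.not_nonempty_iff_eq_empty] at hs
      subst hs
      refine ⟨A, 1, one_pos, hT, ?_⟩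
      intro a ha v
      obtain ⟨a', ha', φ, -, h⟩ := hT.1 (a + 1 • v)
      rw [Finset.sum_empty, add_zero] at h
      rw [h]; exact ha'

end Vale.Agent.H77.Lines
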