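import Vale.Agent.H77.Lines.Basic

namespace Vale.Agent.H77.Lines

open Finset
open Vale.Agent.H12.PrimeSum

variable {G : Type*} [AddCommGroup G]

/-- the arithmetic progression `{0, g, ..., (p-1) g}` -/
def AP (g : G) (p : ℕ) : Set G := {x | ∃ l : ℕ, l < p ∧ x = l • g}

/-- `S` is a complete system of residues modulo `p` along the line `c + ℤ g` -/
structure Res (g : G) (p : ℕ) (c : G) (S : Set G) : Prop where
  coord : ∀ x ∈ S, ∃ m : ℤ, x = c + m • g
  surj : ∀ r : ℤ, ∃ x ∈ S, ∃ m : ℤ, x = c + m • g ∧ (p : ℤ) ∣ m - r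
  inj : ∀ x ∈ S, ∀ x' ∈ S, ∀ m m' : ℤ, x = c + m • g → x' = c + m' • g →
    (p : ℤ) ∣ m - m' → x = x'

theorem zsmul_inj (htf : ∀ (n : ℤ) (w : G), n • w = 0 → n = 0 ∨ w = 0) {g : G} (hg : g ≠ 0)
    {m m' : ℤ} (h : m • g = m' • g) : m = m' := by
  have h0 : (m - m') • g = 0 := by rw [sub_smul, h, sub_self]
  rcases htf _ _ h0 with h1 | h1
  · exact sub_eq_zero.mp h1
  · exact absurd h1 hg

theorem c1_toB {B S : Set G} (h : C1 B S) : ∀ y, ∃! b, b ∈ B ∧ y - b ∈ S := by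
  intro y
  obtain ⟨f, ⟨hf, hb⟩, hu⟩ := h y
  refine ⟨y - f, ⟨hb, by rw [sub_sub_cancel]; exact hf⟩, ?_⟩
  rintro b ⟨hb', hf'⟩
  have := hu (y - b) ⟨hf', by rw [sub_sub_cancel]; exact hb'⟩
  rw [← this, sub_sub_cancel]

theorem c1_compl {B S : Set G} (h : C1 B S) : Compl B S Set.univ where
  cov y := by
    simp only [Set.mem_univ, true_iff]
    obtain ⟨b, ⟨hb, hf⟩, -⟩ := c1_toB h y
    exact ⟨b, hb, hf⟩
  uniq a ha a' ha' y hf hf' := (c1_toB h y).unique ⟨ha, hf⟩ ⟨ha', hf'⟩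

theorem c1_of_compl {B S : Set G} (h : Compl B S Set.univ) : C1 B S := by
  intro y
  obtain ⟨b, hb, hf⟩ := (h.cov y).mp trivial
  refine ⟨y - b, ⟨hf, by rw [sub_sub_cancel]; exact hb⟩, ?_⟩
  rintro f ⟨hf', hb'⟩
  have := h.uniq (y - f) hb' b hb y (by rw [sub_sub_cancel]; exact hf') hf
  rw [← this, sub_sub_cancel]

theorem inv_int {B : Set G} {g : G} {p : ℕ} (hinv : ∀ b, b ∈ B ↔ b + p • g ∈ B) :
    ∀ (e : ℤ) (b : G), b ∈ B ↔ b + (e * (p : ℤ)) • g ∈ B := by
  have hnat : ∀ (n : ℕ) (b : G), b ∈ B ↔ b + (n * p) • g ∈ B := by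
    intro n
    induction n with
    | zero => intro b; simp
    | succ n ih =>
      intro b
      rw [ih b, hinv (b + (n * p) • g)]
      have e : b + (n * p) • g + p • g = b + ((n + 1) * p) • g := by
        rw [add_mul, one_mul, add_smul]; abel
      rw [e]
  intro e b
  obtain ⟨n, rfl | rfl⟩ := Int.eq_nat_or_neg e
  · have e1 : ((n : ℤ) * (p : ℤ)) • g = (n * p) • g := by
      rw [← Nat.cast_mul, natCast_zsmul]
    rw [e1]; exact hnat n b
  · have e1 : (-(n : ℤ) * (p : ℤ)) • g = -((n * p) • g) := by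
      rw [neg_mul, neg_smul, ← Nat.cast_mul, natCast_zsmul]
    rw [e1, hnat n (b + -((n * p) • g))]
    have e2 : b + -((n * p) • g) + (n * p) • g = b := by abel
    rw [e2]

/-- two complete residue systems along the same line are interchangeable as tiles -/
theorem c1_trans (htf : ∀ (n : ℤ) (w : G), n • w = 0 → n = 0 ∨ w = 0) {g : G} (hg : g ≠ 0)
    {p : ℕ} {c c' : G} {S S' B : Set G} (hS : Res g p c S) (hS' : Res g p c' S')
    (hinv : ∀ b, b ∈ B ↔ b + p • g ∈ B) (h : C1 B S) : C1 ((· + (c - c')) '' B) S' := by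
  have hZ := inv_int hinv
  intro y
  have hP : ∀ r r' : ℤ, (p : ℤ) ∣ r - r' → (y - c - r' • g ∈ B → y - c - r • g ∈ B) := by
    intro r r' ⟨e, he⟩ hr'
    have e1 : y - c - r • g = (y - c - r' • g) + ((-e) * (p : ℤ)) • g := by
      have : r = r' + p * e := by linarith
      rw [this, add_smul, neg_mul, neg_smul, mul_comm]
      abel
    rw [e1]
    exact (hZ (-e) _).mp hr'
  obtain ⟨f, ⟨hfS, hfB⟩, hfu⟩ := h y
  obtain ⟨m₀, hm₀⟩ := hS.coord f hfS
  have hP0 : y - c - m₀ • g ∈ B := by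
    have : y - c - m₀ • g = y - f := by rw [hm₀]; abel
    rw [this]; exact hfB
  have key : ∀ r : ℤ, y - c - r • g ∈ B → (p : ℤ) ∣ r - m₀ := by
    intro r hr
    obtain ⟨x, hx, m, hxm, hd⟩ := hS.surj r
    have hm : y - c - m • g ∈ B := hP m r hd hr
    have hxf : x = f := hfu x ⟨hx, by
      have : y - x = y - c - m • g := by rw [hxm]; abel
      rw [this]; exact hm⟩
    have hmm : m = m₀ := by
      apply zsmul_inj htf hg
      have : c + m • g = c + m₀ • g := by rw [← hxm, ← hm₀, hxf]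
      exact add_left_cancel this
    rw [hmm] at hd
    exact (dvd_sub_comm).mp hd
  obtain ⟨x', hx', m', hx'm, hd'⟩ := hS'.surj m₀
  have hPm' : y - c - m' • g ∈ B := hP m' m₀ hd' hP0
  refine ⟨x', ⟨hx', y - c - m' • g, hPm', ?_⟩, ?_⟩
  · show y - c - m' • g + (c - c') = y - x'
    rw [hx'm]; abel
  · rintro x'' ⟨hx'', b, hb, hbe⟩
    have hbe' : b + (c - c') = y - x'' := hbe
    obtain ⟨m'', hx''m⟩ := hS'.coord x'' hx''
    have hb2 : b = y - c - m'' • g := by
      have : b = (b + (c - c')) - (c - c') := by abel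
      rw [this, hbe', hx''m]; abel
    rw [hb2] at hb
    have h1 := key m'' hb
    have h2 : (p : ℤ) ∣ m'' - m' := by
      have : m'' - m' = (m'' - m₀) - (m' - m₀) := by ring
      rw [this]; exact dvd_sub h1 hd'
    exact hS'.inj x'' hx'' x' hx' m'' m' hx''m hx'm h2

/-- a complement of a set of prime cardinality is invariant under `p g` for `g` in the group
generated by the differences -/
theorem inv_of_closure {B : Set G} (F : Finset G) (hp : F.card.Prime) (hB : C1 B (↑F : Set G))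
    {g : G} (hg : g ∈ AddSubgroup.closure {x : G | ∃ f ∈ F, ∃ f' ∈ F, x = f - f'}) :
    ∀ b, b ∈ B ↔ b + F.card • g ∈ B := by
  have hinv := szegedy_inv B F hp (c1_compl hB)
  have hg1 : g ∈ Psub 1 (↑F : Set G) := by
    have hsub : {x : G | ∃ f ∈ F, ∃ f' ∈ F, x = f - f'} ⊆
        {x : G | ∃ f ∈ (↑F : Set G), ∃ f' ∈ (↑F : Set G), x = 1 • (f - f')} := by
      rintro x ⟨f, hf, f', hf', rfl⟩
      exact ⟨f, hf, f', hf', by rw [one_smul]⟩
    exact AddSubgroup.closure_mono hsub hg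
  have hpg : F.card • g ∈ Psub F.card (↑F : Set G) := smul_mem_Psub F.card _ hg1
  intro b
  constructor
  · intro hb; exact hinv _ hpg b hb
  · intro hb
    have := hinv _ (neg_mem hpg) _ hb
    rwa [add_neg_cancel_right] at this

/-- the arithmetic progression as a finset -/
noncomputable def apFin (g : G) (p : ℕ) : Finset G := by
  classical exact (Finset.range p).image (fun l : ℕ => l • g)

theorem coe_apFin (g : G) (p : ℕ) : (↑(apFin g p) : Set G) = AP g p := by
  classical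
  ext x
  simp only [apFin, Finset.coe_image, Finset.coe_range, Set.mem_image, Set.mem_Iio]
  constructor
  · rintro ⟨l, hl, rfl⟩; exact ⟨l, hl, rfl⟩
  · rintro ⟨l, hl, rfl⟩; exact ⟨l, hl, rfl⟩

theorem nsmul_inj (htf : ∀ (n : ℤ) (w : G), n • w = 0 → n = 0 ∨ w = 0) {g : G} (hg : g ≠ 0)
    {l l' : ℕ} (h : l • g = l' • g) : l = l' := by
  have : (l : ℤ) • g = (l' : ℤ) • g := by rw [natCast_zsmul, natCast_zsmul, h]
  exact_mod_cast zsmul_inj htf hg this

theorem card_apFin (htf : ∀ (n : ℤ) (w : G), n • w = 0 → n = 0 ∨ w = 0) {g : G} (hg : g ≠ 0)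
    (p : ℕ) : (apFin g p).card = p := by
  classical
  rw [apFin, Finset.card_image_of_injective _ (fun l l' h => nsmul_inj htf hg h),
    Finset.card_range]

theorem ap_inv (htf : ∀ (n : ℤ) (w : G), n • w = 0 → n = 0 ∨ w = 0) {g : G} (hg : g ≠ 0)
    {p : ℕ} (hp : p.Prime) {B : Set G} (hB : C1 B (AP g p)) : ∀ b, b ∈ B ↔ b + p • g ∈ B := by
  classical
  have hcard := card_apFin htf hg p
  have hB' : C1 B (↑(apFin g p) : Set G) := by rw [coe_apFin]; exact hB
  have h := inv_of_closure (apFin g p) (by rw [hcard]; exact hp) hB' (g := g) (by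
    apply AddSubgroup.subset_closure
    refine ⟨1 • g, ?_, 0 • g, ?_, by simp⟩
    · rw [← Finset.mem_coe, coe_apFin]; exact ⟨1, hp.one_lt, rfl⟩
    · rw [← Finset.mem_coe, coe_apFin]; exact ⟨0, hp.pos, rfl⟩)
  rw [hcard] at h
  exact h

theorem res_ap (htf : ∀ (n : ℤ) (w : G), n • w = 0 → n = 0 ∨ w = 0) {g : G} (hg : g ≠ 0)
    {p : ℕ} (hp : 0 < p) : Res g p 0 (AP g p) where
  coord := by
    rintro x ⟨l, -, rfl⟩
    exact ⟨l, by rw [zero_add, natCast_zsmul]⟩
  surj := by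
    intro r
    have hp' : (0 : ℤ) < p := by exact_mod_cast hp
    have h0 : 0 ≤ r % (p : ℤ) := Int.emod_nonneg r (ne_of_gt hp')
    have h1 : r % (p : ℤ) < p := Int.emod_lt_of_pos r hp'
    refine ⟨(r % (p : ℤ)).toNat • g, ⟨(r % (p : ℤ)).toNat, by omega, rfl⟩, r % (p : ℤ), ?_, ?_⟩
    · rw [zero_add, ← natCast_zsmul, Int.toNat_of_nonneg h0]
    · exact ⟨-(r / (p : ℤ)), by have := Int.emod_add_mul_ediv r p; linarith⟩
  inj := by
    rintro x ⟨l, hl, rfl⟩ x' ⟨l', hl', rfl⟩ m m' hm hm' hd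
    have e1 : (l : ℤ) = m := by
      apply zsmul_inj htf hg; rw [natCast_zsmul, hm, zero_add]
    have e2 : (l' : ℤ) = m' := by
      apply zsmul_inj htf hg; rw [natCast_zsmul, hm', zero_add]
    rw [← e1, ← e2] at hd
    have : (l : ℤ) - l' = 0 := by
      apply Int.eq_zero_of_abs_lt_dvd hd
      rw [abs_lt]; constructor <;> omega
    have hll : l = l' := by omega
    rw [hll]

theorem res_ap_dil (htf : ∀ (n : ℤ) (w : G), n • w = 0 → n = 0 ∨ w = 0) {g : G} (hg : g ≠ 0)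
    {p : ℕ} (hp : p.Prime) {t : ℤ} (ht : ¬ (p : ℤ) ∣ t) : Res g p 0 (AP (t • g) p) where
  coord := by
    rintro x ⟨l, -, rfl⟩
    exact ⟨l * t, by rw [zero_add, mul_smul, natCast_zsmul]⟩
  surj := by
    intro r
    have : Fact p.Prime := ⟨hp⟩
    have ht0 : (t : ZMod p) ≠ 0 := fun h => ht ((ZMod.intCast_zmod_eq_zero_iff_dvd t p).mp h)
    let u : ZMod p := (r : ZMod p) * (t : ZMod p)⁻¹
    refine ⟨u.val • (t • g), ⟨u.val, ZMod.val_lt u, rfl⟩, (u.val : ℤ) * t, ?_, ?_⟩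
    · rw [zero_add, mul_smul, natCast_zsmul]
    · apply (ZMod.intCast_zmod_eq_zero_iff_dvd _ p).mp
      push_cast
      rw [ZMod.natCast_zmod_val]
      show (r : ZMod p) * (t : ZMod p)⁻¹ * (t : ZMod p) - (r : ZMod p) = 0
      rw [mul_assoc, inv_mul_cancel₀ ht0, mul_one, sub_self]
  inj := by
    rintro x ⟨l, hl, rfl⟩ x' ⟨l', hl', rfl⟩ m m' hm hm' hd
    have e1 : (l : ℤ) * t = m := by
      apply zsmul_inj htf hg; rw [mul_smul, natCast_zsmul, hm, zero_add]
    have e2 : (l' : ℤ) * t = m' := by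
      apply zsmul_inj htf hg; rw [mul_smul, natCast_zsmul, hm', zero_add]
    rw [← e1, ← e2, ← sub_mul] at hd
    have hd2 : (p : ℤ) ∣ (l : ℤ) - l' := by
      rcases (Nat.prime_iff_prime_int.mp hp).dvd_or_dvd hd with h | h
      · exact h
      · exact absurd h ht
    have : (l : ℤ) - l' = 0 := by
      apply Int.eq_zero_of_abs_lt_dvd hd2
      rw [abs_lt]; constructor <;> omega
    have hll : l = l' := by omega
    rw [hll]

/-- dilating an arithmetic progression of prime length by a factor prime to the length -/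
theorem c1_ap_dil (htf : ∀ (n : ℤ) (w : G), n • w = 0 → n = 0 ∨ w = 0) {g : G} (hg : g ≠ 0)
    {p : ℕ} (hp : p.Prime) {t : ℤ} (ht : ¬ (p : ℤ) ∣ t) {B : Set G} (hB : C1 B (AP g p)) :
    C1 B (AP (t • g) p) := by
  have h := c1_trans htf hg (res_ap htf hg hp.pos) (res_ap_dil htf hg hp ht) (ap_inv htf hg hp hB)
    hB
  have e : ((· + ((0 : G) - 0)) '' B) = B := by simp
  rw [e] at h
  exact h

end Vale.Agent.H77.Lines
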